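import Vale.Agent.P183.R2.H668.KW.Spec

set_option linter.all false

namespace Vale.Agent.P183.R2.H311

open Vale.Agent.P183.R2.H668.KW

/-- The graph of the cover relation of a partial order, on two copies. -/
def cgraph (α : Type) [PartialOrder α] : SimpleGraph (α ⊕ α) where
  Adj u v := (∃ x y : α, x ⋖ y ∧ u = Sum.inl x ∧ v = Sum.inr y) ∨
    (∃ x y : α, x ⋖ y ∧ u = Sum.inr y ∧ v = Sum.inl x)
  symm := ⟨by
    rintro u v (⟨x, y, h, hu, hv⟩ | ⟨x, y, h, hu, hv⟩)
    · exact Or.inr ⟨x, y, h, hv, hu⟩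
    · exact Or.inl ⟨x, y, h, hv, hu⟩⟩
  loopless := ⟨by
    rintro u (⟨x, y, h, hu, hv⟩ | ⟨x, y, h, hu, hv⟩)
    · rw [hu] at hv; cases hv
    · rw [hu] at hv; cases hv⟩

theorem cgraph_lr (α : Type) [PartialOrder α] (x y : α) :
    (cgraph α).Adj (Sum.inl x) (Sum.inr y) ↔ x ⋖ y := by
  constructor
  · rintro (⟨a, b, h, hu, hv⟩ | ⟨a, b, h, hu, hv⟩)
    · cases hu; cases hv; exact h
    · cases hu
  · intro h
    exact Or.inl ⟨x, y, h, rfl, rfl⟩

theorem cgraph_rl (α : Type) [PartialOrder α] (x y : α) :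
    (cgraph α).Adj (Sum.inr y) (Sum.inl x) ↔ x ⋖ y := by
  rw [SimpleGraph.adj_comm, cgraph_lr]

theorem cgraph_ll (α : Type) [PartialOrder α] (x y : α) :
    ¬ (cgraph α).Adj (Sum.inl x) (Sum.inl y) := by
  rintro (⟨a, b, h, hu, hv⟩ | ⟨a, b, h, hu, hv⟩)
  · cases hv
  · cases hu

theorem cgraph_rr (α : Type) [PartialOrder α] (x y : α) :
    ¬ (cgraph α).Adj (Sum.inr x) (Sum.inr y) := by
  rintro (⟨a, b, h, hu, hv⟩ | ⟨a, b, h, hu, hv⟩)
  · cases hu
  · cases hv

theorem cgraph_free (α : Type) [L : Lattice α] : C4Free (cgraph α) := by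
  rintro (u | u) (v | v) (x | x) (y | y) huv h1 h2 h3 h4
  all_goals first
    | exact absurd h1 (cgraph_ll _ _ _)
    | exact absurd h2 (cgraph_ll _ _ _)
    | exact absurd h3 (cgraph_ll _ _ _)
    | exact absurd h1 (cgraph_rr _ _ _)
    | exact absurd h2 (cgraph_rr _ _ _)
    | exact absurd h3 (cgraph_rr _ _ _)
    | skip
  · rw [cgraph_lr] at h1 h2 h3 h4
    have huv' : u ≠ v := fun h => huv (congrArg _ h)
    exact congrArg _ ((WCovBy.sup_eq h1.wcovBy h2.wcovBy huv').symm.trans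
      (WCovBy.sup_eq h3.wcovBy h4.wcovBy huv'))
  · rw [cgraph_rl] at h1 h2 h3 h4
    have huv' : u ≠ v := fun h => huv (congrArg _ h)
    exact congrArg _ ((WCovBy.inf_eq h1.wcovBy h2.wcovBy huv').symm.trans
      (WCovBy.inf_eq h3.wcovBy h4.wcovBy huv'))

theorem cgraph_le (α : Type) [Finite α] (P Q : PartialOrder α)
    (h : @cgraph α P = @cgraph α Q) (x y : α) : P.le x y → Q.le x y := by
  classical
  haveI := Fintype.ofFinite α
  intro hxy
  have hc : ∀ a b, @CovBy α P.toLT a b → @CovBy α Q.toLT a b := by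
    intro a b hab
    rw [← @cgraph_lr α Q, ← h]
    exact (@cgraph_lr α P a b).2 hab
  have h1 : @Relation.ReflTransGen α (fun a b => @CovBy α P.toLT a b) x y := by
    letI := P
    letI : LocallyFiniteOrder α := Fintype.toLocallyFiniteOrder
    exact le_iff_reflTransGen_covBy.1 hxy
  have h2 : @Relation.ReflTransGen α (fun a b => @CovBy α Q.toLT a b) x y := Relation.ReflTransGen.mono hc _ _ h1
  letI := Q
  letI : LocallyFiniteOrder α := Fintype.toLocallyFiniteOrder
  exact le_iff_reflTransGen_covBy.2 h2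

theorem rowC : StC := by
  intro n κ _ Λ hΛ
  let P : κ → PartialOrder (Fin n) := fun i => (Λ i).toSemilatticeSup.toPartialOrder
  let F : κ → {G : SimpleGraph (Fin n ⊕ Fin n) | C4Free G} :=
    fun i => ⟨@cgraph (Fin n) (P i), @cgraph_free (Fin n) (Λ i)⟩
  have hF : Function.Injective F := by
    intro i j hij
    have h1 : @cgraph (Fin n) (P i) = @cgraph (Fin n) (P j) := congrArg Subtype.val hij
    refine hΛ i j fun x y => ⟨?_, ?_⟩
    · exact cgraph_le (Fin n) (P i) (P j) h1 x y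
    · exact cgraph_le (Fin n) (P j) (P i) h1.symm x y
  have h2 := Nat.card_le_card_of_injective F hF
  rwa [Nat.card_coe_set_eq] at h2

end Vale.Agent.P183.R2.H311

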